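import Vale.Agent.P340.Basic

namespace Vale.Agent.Results.P340.FiniteReduction

open Vale.Agent.P340

universe u

variable {S : Type u}

theorem typing_mono {Ax Ax' : S → S → Prop} {Ru Ru' : S → S → S → Prop}
    (hA : ∀ s t, Ax s t → Ax' s t) (hR : ∀ s t r, Ru s t r → Ru' s t r)
    {Γ : List (Tm S)} {M B : Tm S} (h : Typing Ax Ru Γ M B) : Typing Ax' Ru' Γ M B := by
  induction h with
  | ax h => exact Typing.ax (hA _ _ h)
  | var _ ih => exact Typing.var ih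
  | weak _ _ ih₁ ih₂ => exact Typing.weak ih₁ ih₂
  | prod hr _ _ ih₁ ih₂ => exact Typing.prod (hR _ _ _ hr) ih₁ ih₂
  | abs _ _ ih₁ ih₂ => exact Typing.abs ih₁ ih₂
  | app _ _ ih₁ ih₂ => exact Typing.app ih₁ ih₂
  | conv _ _ hc ih₁ ih₂ => exact Typing.conv ih₁ ih₂ hc

/-- The specification induced on a finite set of sorts (still over the type `S`). -/
def resAx (Ax : S → S → Prop) (F : Finset S) : S → S → Prop :=
  fun s t => Ax s t ∧ s ∈ F ∧ t ∈ F

def resRu (Ru : S → S → S → Prop) (F : Finset S) : S → S → S → Prop :=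
  fun s t r => Ru s t r ∧ s ∈ F ∧ t ∈ F ∧ r ∈ F

theorem typing_res_mono {Ax : S → S → Prop} {Ru : S → S → S → Prop} {F F' : Finset S}
    (hF : F ⊆ F') {Γ : List (Tm S)} {M B : Tm S}
    (h : Typing (resAx Ax F) (resRu Ru F) Γ M B) : Typing (resAx Ax F') (resRu Ru F') Γ M B :=
  typing_mono (fun _ _ h => ⟨h.1, hF h.2.1, hF h.2.2⟩)
    (fun _ _ _ h => ⟨h.1, hF h.2.1, hF h.2.2.1, hF h.2.2.2⟩) h

theorem typing_finite [DecidableEq S] {Ax : S → S → Prop} {Ru : S → S → S → Prop}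
    {Γ : List (Tm S)} {M B : Tm S} (h : Typing Ax Ru Γ M B) :
    ∃ F : Finset S, F.Nonempty ∧ Typing (resAx Ax F) (resRu Ru F) Γ M B := by
  induction h with
  | @ax s₁ s₂ h =>
    exact ⟨{s₁, s₂}, ⟨s₁, by simp⟩, Typing.ax ⟨h, by simp, by simp⟩⟩
  | var _ ih =>
    obtain ⟨F, hne, hF⟩ := ih
    exact ⟨F, hne, Typing.var hF⟩
  | weak _ _ ih₁ ih₂ =>
    obtain ⟨F₁, hne, h₁⟩ := ih₁
    obtain ⟨F₂, _, h₂⟩ := ih₂
    exact ⟨F₁ ∪ F₂, hne.mono Finset.subset_union_left,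
      Typing.weak (typing_res_mono Finset.subset_union_left h₁)
        (typing_res_mono Finset.subset_union_right h₂)⟩
  | @prod Γ A B s₁ s₂ s₃ hr _ _ ih₁ ih₂ =>
    obtain ⟨F₁, hne, h₁⟩ := ih₁
    obtain ⟨F₂, _, h₂⟩ := ih₂
    refine ⟨F₁ ∪ F₂ ∪ {s₁, s₂, s₃}, hne.mono (fun x hx => by simp [hx]), ?_⟩
    exact Typing.prod ⟨hr, by simp, by simp, by simp⟩
      (typing_res_mono (fun x hx => by simp [hx]) h₁)
      (typing_res_mono (fun x hx => by simp [hx]) h₂)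
  | abs _ _ ih₁ ih₂ =>
    obtain ⟨F₁, hne, h₁⟩ := ih₁
    obtain ⟨F₂, _, h₂⟩ := ih₂
    exact ⟨F₁ ∪ F₂, hne.mono Finset.subset_union_left,
      Typing.abs (typing_res_mono Finset.subset_union_left h₁)
        (typing_res_mono Finset.subset_union_right h₂)⟩
  | app _ _ ih₁ ih₂ =>
    obtain ⟨F₁, hne, h₁⟩ := ih₁
    obtain ⟨F₂, _, h₂⟩ := ih₂
    exact ⟨F₁ ∪ F₂, hne.mono Finset.subset_union_left,
      Typing.app (typing_res_mono Finset.subset_union_left h₁)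
        (typing_res_mono Finset.subset_union_right h₂)⟩
  | conv _ _ hc ih₁ ih₂ =>
    obtain ⟨F₁, hne, h₁⟩ := ih₁
    obtain ⟨F₂, _, h₂⟩ := ih₂
    exact ⟨F₁ ∪ F₂, hne.mono Finset.subset_union_left,
      Typing.conv (typing_res_mono Finset.subset_union_left h₁)
        (typing_res_mono Finset.subset_union_right h₂) hc⟩

theorem legal_finite [DecidableEq S] {Ax : S → S → Prop} {Ru : S → S → S → Prop}
    {M : Tm S} (h : Legal Ax Ru M) :
    ∃ F : Finset S, F.Nonempty ∧ Legal (resAx Ax F) (resRu Ru F) M := by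
  obtain ⟨Γ, N, h | h⟩ := h
  · obtain ⟨F, hne, hF⟩ := typing_finite h
    exact ⟨F, hne, Γ, N, Or.inl hF⟩
  · obtain ⟨F, hne, hF⟩ := typing_finite h
    exact ⟨F, hne, Γ, N, Or.inr hF⟩

theorem reduce_to_finite
    (H : ∀ (n : ℕ) (Ax : Fin n → Fin n → Prop) (Ru : Fin n → Fin n → Fin n → Prop),
      WN Ax Ru → SN Ax Ru)
    (Ax : S → S → Prop) (Ru : S → S → S → Prop) (hWN : WN Ax Ru) : SN Ax Ru := by
  classical
  intro M hM hdiv
  obtain ⟨F, ⟨s₀, hs₀⟩, hF⟩ := legal_finite hM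
  let e : F ≃ Fin F.card := F.equivFin
  let ι : Fin F.card → S := fun i => (e.symm i).1
  let ρ : S → Fin F.card := fun s => if h : s ∈ F then e ⟨s, h⟩ else e ⟨s₀, hs₀⟩
  have hιρ : ∀ s ∈ F, ι (ρ s) = s := by
    intro s hs
    simp [ι, ρ, hs]
  let Ax₀ : Fin F.card → Fin F.card → Prop := fun i j => Ax (ι i) (ι j)
  let Ru₀ : Fin F.card → Fin F.card → Fin F.card → Prop := fun i j k => Ru (ι i) (ι j) (ι k)
  have hWN₀ : WN Ax₀ Ru₀ :=
    WN.of_morphism ι (fun _ _ h => h) (fun _ _ _ h => h) hWN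
  have hSN₀ : SN Ax₀ Ru₀ := H _ _ _ hWN₀
  have hleg : Legal Ax₀ Ru₀ (Tm.map ρ M) := by
    refine Legal.map ρ ?_ ?_ hF
    · rintro s t ⟨h, hs, ht⟩
      simpa [Ax₀, hιρ s hs, hιρ t ht] using h
    · rintro s t r ⟨h, hs, ht, hr⟩
      simpa [Ru₀, hιρ s hs, hιρ t ht, hιρ r hr] using h
  exact hSN₀ _ hleg (hdiv.map ρ)

/-- The Barendregt-Geuvers-Klop implication holds for all pure type systems (sorts an arbitrary
type in any universe) if and only if it holds for the systems whose set of sorts is `Fin n`. -/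
theorem result :
    (∀ (S : Type u) (Ax : S → S → Prop) (Ru : S → S → S → Prop), WN Ax Ru → SN Ax Ru) ↔
    (∀ (n : ℕ) (Ax : Fin n → Fin n → Prop) (Ru : Fin n → Fin n → Fin n → Prop),
      WN Ax Ru → SN Ax Ru) := by
  constructor
  · intro H n Ax Ru hWN
    have h1 : WN (fun s t : ULift.{u} (Fin n) => Ax s.down t.down)
        (fun s t r : ULift.{u} (Fin n) => Ru s.down t.down r.down) :=
      WN.of_morphism ULift.down (fun _ _ h => h) (fun _ _ _ h => h) hWN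
    exact SN.of_morphism (Ax' := fun s t : ULift.{u} (Fin n) => Ax s.down t.down)
      (Ru' := fun s t r : ULift.{u} (Fin n) => Ru s.down t.down r.down)
      ULift.up (fun _ _ h => h) (fun _ _ _ h => h) (H _ _ _ h1)
  · intro H S Ax Ru
    exact reduce_to_finite H Ax Ru

end Vale.Agent.Results.P340.FiniteReduction
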